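import Vale.Agent.Lib.P143B.Main

/-!
The free uniform spanning forest is a factor of i.i.d. on every connected locally finite graph: one
Borel isomorphism-invariant map of the graph, the vertex labels and the edge works for all graphs
with no exceptional set, and on a Cayley graph the factor commutes with left multiplication.
-/

open MeasureTheory

universe u

namespace Vale.Agent.Results.P143.A_both_halves

open Vale.Agent.Lib.P143

/-- First clause: a single Borel map `Φ (G, U, e)` on graphs with vertex set `ℕ`, vertex labels and
a distinguished pair, which is invariant under every isomorphism of vertex-labelled graphs with a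
distinguished edge (so it is a function of the isomorphism class), vanishes off the edges of `G`,
and has law the free uniform spanning forest of `G` under i.i.d. uniform labels, for every connected
locally finite graph `G` on `ℕ`.

Second clause: for every group and every finite generating set, the free uniform spanning forest of
the Cayley graph is the law of a measurable map of i.i.d. uniform labels commuting with left
multiplication. -/
theorem result :
    (∃ Φ : SimpleGraph ℕ → (ℕ → unitInterval) → Sym2 ℕ → Bool,
      Measurable (fun q : SimpleGraph ℕ × (ℕ → unitInterval) => Φ q.1 q.2) ∧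
      (∀ (G G' : SimpleGraph ℕ) (f : G ≃g G') (U U' : ℕ → unitInterval) (e : Sym2 ℕ),
        (∀ v, U' (f v) = U v) → Φ G' U' (Sym2.map f e) = Φ G U e) ∧
      (∀ (G : SimpleGraph ℕ) (U : ℕ → unitInterval) (e : Sym2 ℕ),
        e ∉ G.edgeSet → Φ G U e = false) ∧
      ∀ G : SimpleGraph ℕ, G.Connected → (∀ v, (G.neighborSet v).Finite) →
        IsFUSF G ((uniformField ℕ).map (fun U (e : G.edgeSet) => Φ G U e.1))) ∧
    ∀ (Γ : Type u) [Group Γ] (S : Finset Γ), Subgroup.closure (S : Set Γ) = ⊤ →
      ∃ Φ : (Γ → unitInterval) → ((cayleyGraph S).edgeSet → Bool), Measurable Φ ∧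
        (∀ (c : Γ) (U : Γ → unitInterval) (e : (cayleyGraph S).edgeSet),
          Φ (fun g => U (c⁻¹ * g)) e = Φ U (cayleyShift S c⁻¹ e)) ∧
        IsFUSF (cayleyGraph S) ((uniformField Γ).map Φ) :=
  ⟨Vale.Agent.Lib.P143B.universal_factor, fun _ _ S hS => Vale.Agent.Lib.P143B.cayley_factor S hS⟩

end Vale.Agent.Results.P143.A_both_halves
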