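import Vale.Agent.Lib.P143.Cayley
import Vale.Agent.Lib.P143.Fusf
import Vale.Agent.Lib.P143.FusfDefs

/-!
The free uniform spanning forest of every Cayley graph of every finitely generated group is a
factor of i.i.d. for the group.
-/

open MeasureTheory Filter Topology

namespace Vale.Agent.Results.P143.A_cayley

open Vale.Agent.Lib.P143

/-- For every finite generating set of every group, the free uniform spanning forest of the Cayley
graph exists and is a factor of i.i.d. uniform vertex labels, by a measurable map commuting exactly
with left multiplication. -/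
theorem result {Γ : Type*} [Group Γ] (S : Finset Γ) (hS : Subgroup.closure (S : Set Γ) = ⊤) :
    ∃ Φ : (Γ → unitInterval) → ((cayleyGraph S).edgeSet → Bool), Measurable Φ ∧
      (∀ (c : Γ) (U : Γ → unitInterval) (e : (cayleyGraph S).edgeSet),
        Φ (fun g => U (c⁻¹ * g)) e = Φ U (cayleyShift S c⁻¹ e)) ∧
      IsFUSF (cayleyGraph S) ((uniformField Γ).map Φ) := by
  classical
  have hc := cayleyGraph_connected S hS
  have hΓ : Countable Γ := countable_of_cayley S hS
  have hlf : ∀ v, ((cayleyGraph S).neighborSet v).Finite := fun v => Set.toFinite _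
  obtain ⟨μ, hμ, hL, hinv, hlim⟩ := fusf_main hlf hc
  obtain ⟨Φ, hΦ, heq, hmap⟩ := cayley_assembly S hS μ (K := 16) (by norm_num) hL
    (fun c => hinv (cayleyIso S c))
  refine ⟨Φ, hΦ, heq, ?_⟩
  rw [hmap]
  refine ⟨hμ, ?_, fun H hH F P hF hP => ?_⟩
  · exact ⟨ballH (cayleyGraph S) 1, isExhaustion_ballH hlf hc 1⟩
  · have h := hlim hH F P
    have hset : evtSet F P = {σ : (cayleyGraph S).edgeSet → Bool |
        ∀ e : (cayleyGraph S).edgeSet, e.1 ∈ F → (σ e = true ↔ e.1 ∈ P)} := by
      ext σ
      simp only [evtSet, Set.mem_ofPred_eq]
      constructor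
      · intro h1 e he
        rw [← h1, Finset.mem_filter]
        simp [he, toBoolFun]
      · intro h1
        ext e
        rw [Finset.mem_filter]
        constructor
        · rintro ⟨he, h2⟩
          have hee := hF he
          have : toBoolFun σ e = σ ⟨e, hee⟩ := by simp [toBoolFun, hee]
          rw [this] at h2
          exact (h1 ⟨e, hee⟩ he).1 h2
        · intro he
          have heF := hP he
          have hee := hF heF
          refine ⟨heF, ?_⟩
          have : toBoolFun σ e = σ ⟨e, hee⟩ := by simp [toBoolFun, hee]
          rw [this]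
          exact (h1 ⟨e, hee⟩ heF).2 he
    rw [hset] at h
    exact h

end Vale.Agent.Results.P143.A_cayley
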